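import Mathlib

/-!
# P279, combinatorial part

* two invariants for the unloading lemma (`InvAP`, `InvGrid`);
* a balancing lemma (`exists_balanced`);
* existence of labelings realizing the invariants (`exists_AP`, `exists_grid`).
-/

namespace Vale.Agent.Lib.P279

open Finset

section Invariants

variable {ι : Type*} [Fintype ι]

/-- sum of `m` over the fibre of `g` over `j` -/
def fsum (g : ι → ℕ) (m : ι → ℕ) (j : ℕ) : ℕ := ∑ i ∈ univ.filter (fun i => g i = j), m i

/-- lowering `m` by one along the fibre over `j` -/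
def lower (g : ι → ℕ) (m : ι → ℕ) (j : ℕ) : ι → ℕ := fun i => if g i = j then m i - 1 else m i

theorem fsum_lower_self (g : ι → ℕ) (m : ι → ℕ) (j : ℕ) :
    fsum g m j ≤ fsum g (lower g m j) j + (univ.filter (fun i => g i = j)).card := by
  unfold fsum lower
  rw [card_eq_sum_ones, ← sum_add_distrib]
  apply sum_le_sum
  intro i hi
  rw [if_pos (mem_filter.1 hi).2]
  omega

theorem fsum_lower_of_ne (g : ι → ℕ) (m : ι → ℕ) {j k : ℕ} (h : k ≠ j) :
    fsum g (lower g m j) k = fsum g m k := by
  unfold fsum lower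
  apply sum_congr rfl
  intro i hi
  rw [if_neg]
  rw [(mem_filter.1 hi).2]
  exact h

/-- the arithmetic-progression invariant -/
def InvAP (n : ℕ) (g : ι → ℕ) (d : ℕ) (m : ι → ℕ) : Prop :=
  ∃ π : Fin (n + 1) ≃ Fin (n + 1), ∀ j : Fin (n + 1), d + 1 ≤ fsum g m j + (π j : ℕ)

theorem InvAP_step (n : ℕ) (g : ι → ℕ)
    (hcard : ∀ j : ℕ, j < n + 1 → (univ.filter (fun i => g i = j)).card ≤ n + 1)
    (d : ℕ) (m : ι → ℕ) (h : InvAP n g d m) :
    ∃ j : ℕ, d < ∑ i ∈ univ.filter (fun i => g i = j), m i ∧
      ∀ d', d = d' + 1 → InvAP n g d' (fun i => if g i = j then m i - 1 else m i) := by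
  obtain ⟨π, hπ⟩ := h
  set j0 : Fin (n + 1) := π.symm 0 with hj0
  have hπj0 : π j0 = 0 := by simp [hj0]
  refine ⟨(j0 : ℕ), ?_, ?_⟩
  · have := hπ j0
    rw [hπj0] at this
    simp only [Fin.val_zero, add_zero] at this
    exact this
  · rintro d' rfl
    refine ⟨π.trans (Equiv.subRight 1), ?_⟩
    intro j
    have hval : ((π.trans (Equiv.subRight 1)) j : ℕ) = if π j = 0 then n else (π j : ℕ) - 1 := by
      simp only [Equiv.trans_apply, Equiv.subRight_apply]
      exact Fin.coe_sub_one (π j)
    rw [hval]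
    change d' + 1 ≤ fsum g (lower g m j0) j + _
    by_cases hj : j = j0
    · subst hj
      rw [if_pos hπj0]
      have h1 := fsum_lower_self g m (j0 : ℕ)
      have h2 := hcard j0 j0.isLt
      have h3 := hπ j0
      rw [hπj0] at h3
      simp only [Fin.val_zero, add_zero] at h3
      omega
    · have hne : (j : ℕ) ≠ (j0 : ℕ) := fun h => hj (Fin.ext h)
      rw [fsum_lower_of_ne g m hne]
      have hπj : π j ≠ 0 := by
        intro h0
        apply hj
        rw [hj0, ← h0, Equiv.symm_apply_apply]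
      rw [if_neg hπj]
      have h3 := hπ j
      have h4 : 0 < (π j : ℕ) := Nat.pos_of_ne_zero (fun h => hπj (Fin.ext h))
      omega

/-- the grid invariant -/
def InvGrid (a : ℕ) (g : ι → ℕ) (d : ℕ) (m : ι → ℕ) : Prop :=
  d * a < ∑ i ∈ univ.filter (fun i => g i < a), m i

theorem InvGrid_step (a : ℕ) (g : ι → ℕ)
    (hcard : ∀ j : ℕ, j < a → (univ.filter (fun i => g i = j)).card ≤ a)
    (d : ℕ) (m : ι → ℕ) (h : InvGrid a g d m) :
    ∃ j : ℕ, d < ∑ i ∈ univ.filter (fun i => g i = j), m i ∧
      ∀ d', d = d' + 1 → InvGrid a g d' (fun i => if g i = j then m i - 1 else m i) := by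
  unfold InvGrid at h
  have hfib : ∑ i ∈ univ.filter (fun i => g i < a), m i =
      ∑ j ∈ range a, ∑ i ∈ univ.filter (fun i => g i = j), m i := by
    rw [← sum_fiberwise_of_maps_to (s := univ.filter (fun i => g i < a)) (t := range a) (g := g)
      (fun i hi => mem_range.2 (mem_filter.1 hi).2)]
    apply sum_congr rfl
    intro j hj
    apply sum_congr _ (fun _ _ => rfl)
    ext i
    simp only [mem_filter, mem_univ, true_and]
    constructor
    · rintro ⟨_, h2⟩; exact h2
    · intro h2; exact ⟨by rw [h2]; exact mem_range.1 hj, h2⟩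
  have hex : ∃ j ∈ range a, d < ∑ i ∈ univ.filter (fun i => g i = j), m i := by
    by_contra hcon
    have hcon' : ∀ j ∈ range a, ∑ i ∈ univ.filter (fun i => g i = j), m i ≤ d := by
      intro j hj
      by_contra hlt
      exact hcon ⟨j, hj, not_le.1 hlt⟩
    have : ∑ j ∈ range a, ∑ i ∈ univ.filter (fun i => g i = j), m i ≤ ∑ _j ∈ range a, d :=
      sum_le_sum hcon'
    rw [sum_const, card_range, smul_eq_mul] at this
    rw [hfib] at h
    nlinarith
  obtain ⟨j, hj, hdj⟩ := hex
  refine ⟨j, hdj, ?_⟩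
  rintro d' rfl
  show d' * a < ∑ i ∈ univ.filter (fun i => g i < a), (if g i = j then m i - 1 else m i)
  have hja : j < a := mem_range.1 hj
  have h1 : ∑ i ∈ univ.filter (fun i => g i < a), m i ≤
      ∑ i ∈ univ.filter (fun i => g i < a), (if g i = j then m i - 1 else m i) +
        (univ.filter (fun i => g i = j)).card := by
    have h2 : (univ.filter (fun i => g i = j)).card =
        ∑ i ∈ univ.filter (fun i => g i < a), (if g i = j then 1 else 0) := by
      rw [card_eq_sum_ones, sum_filter, sum_filter]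
      apply sum_congr rfl
      intro i _
      by_cases hgi : g i = j
      · simp [hgi, hja]
      · simp [hgi]
    rw [h2, ← sum_add_distrib]
    apply sum_le_sum
    intro i _
    split_ifs <;> omega
  have h3 := hcard j hja
  have h4 : (d' + 1) * a = d' * a + a := by ring
  omega


end Invariants

/-- **Balancing lemma.** Slots `x : ι` carry labels `g x : κ`; items have weights `m ≤ M`.
Some arrangement `σ` of the items into the slots makes every label class receive at least its
proportional share of the total weight, up to `M`. -/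
theorem exists_balanced {ι κ : Type*} [Fintype ι] [DecidableEq ι] [Fintype κ] [DecidableEq κ]
    (m : ι → ℕ) (M : ℕ) (hM : ∀ i, m i ≤ M) (g : ι → κ) :
    ∃ σ : Equiv.Perm ι, ∀ k : κ,
      (univ.filter (fun x => g x = k)).card * (∑ i, m i) ≤
        Fintype.card ι * (∑ x ∈ univ.filter (fun x => g x = k), m (σ x)) + Fintype.card ι * M := by
  classical
  set r : ℤ := (Fintype.card ι : ℤ) with hr
  set W : ℤ := ∑ i, (m i : ℤ) with hW
  let S : κ → Finset ι := fun k => univ.filter (fun x => g x = k)
  let G : Equiv.Perm ι → κ → ℤ := fun σ k => ∑ x ∈ S k, (m (σ x) : ℤ)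
  let Xf : Equiv.Perm ι → κ → ℤ := fun σ k => r * G σ k - ((S k).card : ℤ) * W
  let Φ : Equiv.Perm ι → ℤ := fun σ => ∑ k, (Xf σ k) ^ 2
  obtain ⟨σ, hσ⟩ := Finite.exists_min Φ
  have hr0 : 0 ≤ r := by positivity
  -- the key claim
  have key : ∀ k, -(r * M) ≤ Xf σ k := by
    intro k
    by_contra hk
    have hk : Xf σ k < -(r * M) := not_le.1 hk
    have hsumG : ∑ k, G σ k = W := by
      have h1 : ∑ k, G σ k = ∑ x, (m (σ x) : ℤ) := by
        simp only [G, S]
        exact sum_fiberwise univ g (fun x => (m (σ x) : ℤ))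
      rw [h1, hW]
      exact Equiv.sum_comp σ (fun i => (m i : ℤ))
    have hsumn : ∑ k, ((S k).card : ℤ) = r := by
      have h1 : ∑ k, (S k).card = Fintype.card ι := by
        have := card_eq_sum_card_fiberwise (s := (univ : Finset ι)) (t := (univ : Finset κ)) (f := g)
          (fun x _ => mem_univ _)
        rw [card_univ] at this
        exact this.symm
      rw [hr, ← h1]; push_cast; rfl
    have hsumX : ∑ k, Xf σ k = 0 := by
      simp only [Xf]
      rw [sum_sub_distrib, ← mul_sum, ← sum_mul, hsumG, hsumn]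
      ring
    have hMr : 0 ≤ r * M := by positivity
    -- a class with surplus
    obtain ⟨l, hl⟩ : ∃ l, 0 < Xf σ l := by
      by_contra hcon
      have hcon' : ∀ l, Xf σ l ≤ 0 := fun l => not_lt.1 (fun h => hcon ⟨l, h⟩)
      have : ∑ k, Xf σ k < 0 := by
        calc ∑ k, Xf σ k < ∑ _k : κ, (0 : ℤ) :=
              sum_lt_sum (fun l _ => hcon' l) ⟨k, mem_univ _, by linarith⟩
          _ = 0 := by simp
      linarith
    have hlk : l ≠ k := by
      rintro rfl
      linarith
    have hnk : 0 < ((S k).card : ℤ) := by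
      rcases Nat.eq_zero_or_pos (S k).card with h0 | h0
      · exfalso
        have hS : S k = ∅ := card_eq_zero.1 h0
        have : Xf σ k = 0 := by simp [Xf, G, hS]
        linarith
      · exact_mod_cast h0
    have hnl : 0 < ((S l).card : ℤ) := by
      rcases Nat.eq_zero_or_pos (S l).card with h0 | h0
      · exfalso
        have hS : S l = ∅ := card_eq_zero.1 h0
        have : Xf σ l = 0 := by simp [Xf, G, hS]
        linarith
      · exact_mod_cast h0
    have hrpos : 0 < r := by
      rcases hr0.lt_or_eq with h | h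
      · exact h
      · exfalso
        have : Xf σ l = -(((S l).card : ℤ) * W) := by simp [Xf, ← h]
        have hW0 : 0 ≤ W := by positivity
        nlinarith
    -- a pair to swap
    obtain ⟨u, hu, v, hv, huv⟩ : ∃ u ∈ S l, ∃ v ∈ S k, m (σ v) < m (σ u) := by
      by_contra hcon
      have hcon' : ∀ u ∈ S l, ∀ v ∈ S k, (m (σ u) : ℤ) ≤ m (σ v) := by
        intro u hu v hv
        by_contra hlt
        exact hcon ⟨u, hu, v, hv, by exact_mod_cast not_le.1 hlt⟩
      have h1 : ((S k).card : ℤ) * G σ l ≤ ((S l).card : ℤ) * G σ k := by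
        have e1 : ((S k).card : ℤ) * G σ l = ∑ v ∈ S k, ∑ u ∈ S l, (m (σ u) : ℤ) := by
          rw [sum_const, nsmul_eq_mul]
        have e2 : ((S l).card : ℤ) * G σ k = ∑ v ∈ S k, ∑ _u ∈ S l, (m (σ v) : ℤ) := by
          simp only [sum_const, nsmul_eq_mul, G, mul_sum]
        rw [e1, e2]
        exact sum_le_sum fun v hv => sum_le_sum fun u hu => hcon' u hu v hv
      have h2 : ((S l).card : ℤ) * W < r * G σ l := by
        have := hl; simp only [Xf] at this; linarith
      have h3 : r * G σ k < ((S k).card : ℤ) * W := by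
        have := hk; simp only [Xf] at this; linarith
      have h4 := mul_lt_mul_of_pos_left h2 hnk
      have h5 := mul_lt_mul_of_pos_left h3 hnl
      have h6 := mul_le_mul_of_nonneg_left h1 hr0
      nlinarith
    have hgu : g u = l := (mem_filter.1 hu).2
    have hgv : g v = k := (mem_filter.1 hv).2
    have huv' : u ≠ v := by
      rintro rfl
      exact hlk (hgu.symm.trans hgv)
    set τ : Equiv.Perm ι := (Equiv.swap u v).trans σ with hτ
    have hτu : τ u = σ v := by simp [hτ]
    have hτv : τ v = σ u := by simp [hτ]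
    have hτo : ∀ x, x ≠ u → x ≠ v → τ x = σ x := by
      intro x h1 h2
      simp [hτ, Equiv.swap_apply_of_ne_of_ne h1 h2]
    set δ : ℤ := (m (σ u) : ℤ) - m (σ v) with hδ
    have hδpos : 0 < δ := by
      have : (m (σ v) : ℤ) < m (σ u) := by exact_mod_cast huv
      linarith
    have hδM : δ ≤ M := by
      have h1 : (m (σ u) : ℤ) ≤ M := by exact_mod_cast hM _
      have h2 : (0 : ℤ) ≤ m (σ v) := by positivity
      linarith
    have hGl : G τ l = G σ l - δ := by
      simp only [G]
      rw [← add_sum_erase _ _ hu, ← add_sum_erase (S l) (fun x => (m (σ x) : ℤ)) hu, hτu]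
      have : ∑ x ∈ (S l).erase u, (m (τ x) : ℤ) = ∑ x ∈ (S l).erase u, (m (σ x) : ℤ) := by
        apply sum_congr rfl
        intro x hx
        have hxu : x ≠ u := (mem_erase.1 hx).1
        have hxv : x ≠ v := by
          rintro rfl
          have := (mem_filter.1 (mem_erase.1 hx).2).2
          exact hlk (this.symm.trans hgv)
        rw [hτo x hxu hxv]
      rw [this, hδ]; ring
    have hGk : G τ k = G σ k + δ := by
      simp only [G]
      rw [← add_sum_erase _ _ hv, ← add_sum_erase (S k) (fun x => (m (σ x) : ℤ)) hv, hτv]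
      have : ∑ x ∈ (S k).erase v, (m (τ x) : ℤ) = ∑ x ∈ (S k).erase v, (m (σ x) : ℤ) := by
        apply sum_congr rfl
        intro x hx
        have hxv : x ≠ v := (mem_erase.1 hx).1
        have hxu : x ≠ u := by
          rintro rfl
          have := (mem_filter.1 (mem_erase.1 hx).2).2
          exact hlk (hgu.symm.trans this)
        rw [hτo x hxu hxv]
      rw [this, hδ]; ring
    have hGo : ∀ c, c ≠ l → c ≠ k → G τ c = G σ c := by
      intro c hcl hck
      simp only [G]
      apply sum_congr rfl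
      intro x hx
      have hgx : g x = c := (mem_filter.1 hx).2
      have hxu : x ≠ u := by rintro rfl; exact hcl (hgx.symm.trans hgu)
      have hxv : x ≠ v := by rintro rfl; exact hck (hgx.symm.trans hgv)
      rw [hτo x hxu hxv]
    have hdiff : Φ σ - Φ τ = ((Xf σ l) ^ 2 - (Xf τ l) ^ 2) + ((Xf σ k) ^ 2 - (Xf τ k) ^ 2) := by
      simp only [Φ]
      rw [← sum_sub_distrib]
      apply sum_eq_add l k hlk
      · intro c _ hc
        have : Xf τ c = Xf σ c := by simp only [Xf]; rw [hGo c hc.1 hc.2]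
        rw [this]; ring
      · intro h; exact absurd (mem_univ _) h
      · intro h; exact absurd (mem_univ _) h
    have hXl : Xf τ l = Xf σ l - r * δ := by simp only [Xf]; rw [hGl]; ring
    have hXk : Xf τ k = Xf σ k + r * δ := by simp only [Xf]; rw [hGk]; ring
    have hlt : Φ τ < Φ σ := by
      have : 0 < Φ σ - Φ τ := by
        rw [hdiff, hXl, hXk]
        have e : (Xf σ l ^ 2 - (Xf σ l - r * δ) ^ 2) + (Xf σ k ^ 2 - (Xf σ k + r * δ) ^ 2)
            = 2 * (r * δ) * (Xf σ l - Xf σ k - r * δ) := by ring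
        rw [e]
        have h1 : 0 < r * δ := mul_pos hrpos hδpos
        have h2 : r * δ ≤ r * M := mul_le_mul_of_nonneg_left hδM hr0
        have h3 : 0 < Xf σ l - Xf σ k - r * δ := by linarith
        positivity
      linarith
    exact absurd (hσ τ) (not_le.2 hlt)
  refine ⟨σ, fun k => ?_⟩
  have h := key k
  simp only [Xf, G, S] at h
  have h' : ((univ.filter (fun x => g x = k)).card : ℤ) * W ≤
      r * (∑ x ∈ univ.filter (fun x => g x = k), (m (σ x) : ℤ)) + r * M := by linarith
  rw [hr, hW] at h'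
  exact_mod_cast h'

theorem exists_labeling {ι : Type*} [Fintype ι] [DecidableEq ι] (a : ℕ) (n : Fin a → ℕ)
    (h : ∑ j, n j ≤ Fintype.card ι) :
    ∃ g : ι → ℕ, (∀ i, g i ≤ a) ∧ ∀ j : Fin a, (univ.filter (fun i => g i = j)).card = n j := by
  classical
  have hc : Fintype.card (Σ j : Fin a, Fin (n j)) ≤ Fintype.card ι := by
    simpa [Fintype.card_sigma] using h
  obtain ⟨emb⟩ := Function.Embedding.nonempty_of_card_le hc
  let g : ι → ℕ := fun i => if h : ∃ s, emb s = i then ((Classical.choose h).1 : ℕ) else a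
  have hg : ∀ s, g (emb s) = (s.1 : ℕ) := by
    intro s
    have hex : ∃ s', emb s' = emb s := ⟨s, rfl⟩
    simp only [g, dif_pos hex]
    have := emb.injective (Classical.choose_spec hex)
    rw [this]
  refine ⟨g, ?_, ?_⟩
  · intro i
    by_cases hex : ∃ s, emb s = i
    · simp only [g, dif_pos hex]
      exact (Classical.choose hex).1.isLt.le
    · simp only [g, dif_neg hex]
      exact le_rfl
  · intro j
    have himg : univ.filter (fun i => g i = j) =
        (univ : Finset (Fin (n j))).image (fun t => emb ⟨j, t⟩) := by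
      ext i
      simp only [mem_filter, mem_univ, true_and, mem_image]
      constructor
      · intro hi
        by_cases hex : ∃ s, emb s = i
        · obtain ⟨⟨j', t⟩, rfl⟩ := hex
          rw [hg] at hi
          have : j' = j := Fin.ext hi
          subst this
          exact ⟨t, rfl⟩
        · simp only [g, dif_neg hex] at hi
          exact absurd hi.symm (ne_of_lt j.isLt)
      · rintro ⟨t, rfl⟩
        rw [hg]
    rw [himg, card_image_of_injective, card_univ, Fintype.card_fin]
    intro t t' htt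
    have := emb.injective htt
    simpa using this

theorem arithG (R M W d A : ℝ) (hM : 0 ≤ M) (hR : 13 * M + 7 ≤ R) (hW1 : R ^ 2 ≤ W)
    (hW2 : W ≤ R ^ 2 * M) (hd : d * R ≤ W) (hA : (A - 2) * W < R ^ 2 * (d + 1 + M))
    (hA1 : 1 ≤ A) : W * (A ^ 2 - R ^ 2) ≤ R ^ 2 * (A * (A - 1) / 2) := by
  have hR0 : 0 < R := by linarith
  have hWpos : 0 < W := lt_of_lt_of_le (by positivity) hW1
  by_cases hAR : A ≤ R
  · have h1 : A ^ 2 - R ^ 2 ≤ 0 := by nlinarith
    have h2 : W * (A ^ 2 - R ^ 2) ≤ 0 := mul_nonpos_of_nonneg_of_nonpos hWpos.le h1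
    have h3 : 0 ≤ R ^ 2 * (A * (A - 1) / 2) := by
      have : 0 ≤ A * (A - 1) := mul_nonneg (by linarith) (by linarith)
      positivity
    linarith
  · have hAR : R < A := not_le.1 hAR
    set e : ℝ := A - R with he
    have he0 : 0 < e := by linarith
    have s0 : R ^ 2 * d ≤ R * W := by nlinarith
    have s1 : (e - 2) * W < R ^ 2 * (1 + M) := by
      have : (e - 2) * W = (A - 2) * W - R * W := by rw [he]; ring
      nlinarith
    have s2 : e * W ≤ R ^ 2 * (3 * M + 1) := by nlinarith
    have s3 : e < M + 3 := by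
      have h1 : (e - 2) * W < (1 + M) * W := by nlinarith
      have := lt_of_mul_lt_mul_right h1 hWpos.le
      linarith
    have s4 : W * (A ^ 2 - R ^ 2) = (e * W) * (2 * R + e) := by rw [he]; ring
    have s5 : (e * W) * (2 * R + e) ≤ (R ^ 2 * (3 * M + 1)) * (2 * R + (M + 3)) := by
      apply mul_le_mul s2 (by linarith) (by positivity) (by positivity)
    have s6 : (3 * M + 1) * (2 * R + (M + 3)) ≤ R * (R - 1) / 2 := by
      obtain ⟨t, ht, rfl⟩ : ∃ t : ℝ, 0 ≤ t ∧ R = 13 * M + 7 + t := ⟨R - (13 * M + 7), by linarith, by ring⟩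
      nlinarith [mul_nonneg hM ht, mul_nonneg hM hM, mul_nonneg ht ht]
    have s7 : R * (R - 1) / 2 ≤ A * (A - 1) / 2 := by nlinarith
    have s8 : (R ^ 2 * (3 * M + 1)) * (2 * R + (M + 3)) = R ^ 2 * ((3 * M + 1) * (2 * R + (M + 3))) := by
      ring
    rw [s4]
    refine s5.trans ?_
    rw [s8]
    apply mul_le_mul_of_nonneg_left (s6.trans s7) (by positivity)


theorem cdiv_spec1 (x W : ℕ) (hW : 0 < W) : x ≤ (x + W - 1) / W * W := by
  have h := Nat.lt_div_mul_add (a := x + W - 1) hW
  omega

theorem cdiv_spec2 (x W : ℕ) (hW : 0 < W) : (x + W - 1) / W * W < x + W := by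
  have h := Nat.div_mul_le_self (x + W - 1) W
  omega

theorem sum_fin_sub (a : ℕ) (L : ℝ) :
    ∑ j : Fin a, (L - (j : ℕ)) = a * L - a * (a - 1) / 2 := by
  rw [Fin.sum_univ_eq_sum_range (fun j => L - (j : ℝ)) a]
  induction a with
  | zero => simp
  | succ a ih =>
    rw [sum_range_succ, ih]
    push_cast
    ring

theorem exists_AP {ι : Type*} [Fintype ι] [DecidableEq ι] (m : ι → ℕ) (M d : ℕ)
    (hpos : ∀ i, 1 ≤ m i) (hM : ∀ i, m i ≤ M)
    (hr : (13 * M + 7) ^ 2 ≤ Fintype.card ι)
    (hW : d ^ 2 * Fintype.card ι ≤ (∑ i, m i) ^ 2) :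
    ∃ (n : ℕ) (g : ι → ℕ), (∀ j, j < n + 1 → (univ.filter (fun i => g i = j)).card ≤ n + 1) ∧
      InvAP n g d m := by
  classical
  set r := Fintype.card ι with hrdef
  set W := ∑ i, m i with hWdef
  have hWr : r ≤ W := by
    rw [hrdef, hWdef, ← card_univ, card_eq_sum_ones]
    exact sum_le_sum fun i _ => hpos i
  have hWM : W ≤ r * M := by
    rw [hrdef, hWdef, ← card_univ, ← smul_eq_mul, ← sum_const]
    exact sum_le_sum fun i _ => hM i
  have hrpos : 0 < r := lt_of_lt_of_le (by positivity) hr
  have hWpos : 0 < W := lt_of_lt_of_le hrpos hWr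
  set L := d + 1 + M with hL
  set b := (r * L + W - 1) / W with hb
  set a := b + 1 with ha
  let nn : Fin a → ℕ := fun j => (r * (L - j) + W - 1) / W
  have hb1 : r * L ≤ b * W := cdiv_spec1 _ _ hWpos
  have hb2 : b * W < r * L + W := cdiv_spec2 _ _ hWpos
  have hbL : b ≤ L := by
    have h1 : b * W < (L + 1) * W := by nlinarith
    have := lt_of_mul_lt_mul_right h1 (Nat.zero_le W)
    omega
  have hnn_le : ∀ j, nn j ≤ b := by
    intro j
    apply Nat.div_le_div_right
    have : r * (L - j) ≤ r * L := Nat.mul_le_mul_left _ (Nat.sub_le _ _)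
    omega
  -- the total number of slots
  have hS1 : ∑ j, nn j ≤ r := by
    have hR : (0 : ℝ) ≤ (r : ℝ) := by positivity
    set R : ℝ := Real.sqrt r with hRdef
    have hR2 : R ^ 2 = r := Real.sq_sqrt hR
    have hR13 : 13 * (M : ℝ) + 7 ≤ R := by
      rw [hRdef]
      apply Real.le_sqrt_of_sq_le
      exact_mod_cast hr
    have hdR : (d : ℝ) * R ≤ W := by
      have h1 : ((d : ℝ) * R) ^ 2 ≤ (W : ℝ) ^ 2 := by
        rw [mul_pow, hR2]; exact_mod_cast hW
      exact le_of_sq_le_sq h1 (by positivity) |> fun h => h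
    have hG := arithG R M W d a (by positivity) hR13 (by rw [hR2]; exact_mod_cast hWr)
      (by rw [hR2]; exact_mod_cast hWM) hdR
      (by
        rw [hR2]
        have h2 : ((b : ℝ)) * W < r * L + W := by exact_mod_cast hb2
        have h3 : ((a : ℝ)) = b + 1 := by rw [ha]; push_cast; ring
        have h4 : (L : ℝ) = d + 1 + M := by rw [hL]; push_cast; ring
        rw [h3, ← h4]
        nlinarith)
      (by rw [ha]; push_cast; linarith [(Nat.cast_nonneg b : (0 : ℝ) ≤ b)])
    have hterm : ∀ j : Fin a, ((nn j : ℕ) : ℝ) * W ≤ r * ((L : ℝ) - (j : ℕ)) + W := by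
      intro j
      have h1 : nn j * W < r * (L - j) + W := cdiv_spec2 _ _ hWpos
      have hjL : (j : ℕ) ≤ L := by have := j.isLt; omega
      have h2 : ((nn j : ℕ) : ℝ) * W < r * ((L - j : ℕ) : ℝ) + W := by exact_mod_cast h1
      rw [Nat.cast_sub hjL] at h2
      exact h2.le
    have hsum : ((∑ j, nn j : ℕ) : ℝ) * W ≤ r * (a * L - a * (a - 1) / 2) + a * W := by
      push_cast
      rw [sum_mul]
      calc ∑ j, ((nn j : ℕ) : ℝ) * W ≤ ∑ j : Fin a, ((r : ℝ) * ((L : ℝ) - (j : ℕ)) + W) :=
            sum_le_sum fun j _ => hterm j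
        _ = r * (a * L - a * (a - 1) / 2) + a * W := by
            rw [sum_add_distrib, ← mul_sum, sum_fin_sub]
            simp
    have hb1' : (r : ℝ) * L ≤ b * W := by exact_mod_cast hb1
    have ha' : (a : ℝ) = b + 1 := by rw [ha]; push_cast; ring
    have hfin : ((∑ j, nn j : ℕ) : ℝ) * W ≤ r * W := by
      rw [hR2] at hG
      have ha0 : (0 : ℝ) ≤ a := by positivity
      have h5 : (a : ℝ) * (r * L) ≤ a * (b * W) := mul_le_mul_of_nonneg_left hb1' ha0
      have hb'' : (b : ℝ) = a - 1 := by linarith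
      rw [hb''] at h5
      have e1 : (r : ℝ) * (a * L - a * (a - 1) / 2) + a * W
          = a * (r * L) - r * (a * (a - 1) / 2) + a * W := by ring
      have e2 : (a : ℝ) * ((a - 1) * W) + a * W = W * a ^ 2 := by ring
      have e3 : (W : ℝ) * (a ^ 2 - r) = W * a ^ 2 - r * W := by ring
      rw [e1] at hsum
      rw [e3] at hG
      linarith
    have hWpos' : (0 : ℝ) < W := by exact_mod_cast hWpos
    have := le_of_mul_le_mul_right hfin hWpos'
    exact_mod_cast this
  obtain ⟨g0, hg0, hg0card⟩ := exists_labeling a nn hS1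
  obtain ⟨σ, hσ⟩ := exists_balanced m M hM (fun i => (⟨g0 i, Nat.lt_succ_of_le (hg0 i)⟩ : Fin (a + 1)))
  have hfib : ∀ j : ℕ, univ.filter (fun i => g0 (σ.symm i) = j) =
      (univ.filter (fun x => g0 x = j)).map σ.toEmbedding := by
    intro j
    ext i
    simp only [mem_filter, mem_univ, true_and, mem_map, Equiv.coe_toEmbedding]
    constructor
    · intro h; exact ⟨σ.symm i, h, by simp⟩
    · rintro ⟨x, hx, rfl⟩; simpa using hx
  refine ⟨b, fun i => g0 (σ.symm i), ?_, ?_⟩
  · intro j hj
    rw [hfib, card_map, hg0card ⟨j, hj⟩]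
    exact (hnn_le _).trans (Nat.le_succ b)
  · refine ⟨Equiv.refl _, ?_⟩
    intro j
    have h1 := hσ ⟨j, Nat.lt_succ_of_lt j.isLt⟩
    have hf : univ.filter (fun x => (⟨g0 x, Nat.lt_succ_of_le (hg0 x)⟩ : Fin (a + 1)) =
        ⟨j, Nat.lt_succ_of_lt j.isLt⟩) = univ.filter (fun x => g0 x = j) := by
      ext x; simp [Fin.ext_iff]
    rw [hf, hg0card j] at h1
    have h2 : r * (L - j) ≤ nn j * W := cdiv_spec1 _ _ hWpos
    have h3 : fsum (fun i => g0 (σ.symm i)) m j = ∑ x ∈ univ.filter (fun x => g0 x = j), m (σ x) := by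
      unfold fsum
      rw [hfib, sum_map]
      rfl
    rw [h3]
    have h4 : r * (L - j) ≤ r * (∑ x ∈ univ.filter (fun x => g0 x = j), m (σ x) + M) := by
      rw [mul_add]; exact h2.trans h1
    have h5 := Nat.le_of_mul_le_mul_left h4 hrpos
    simp only [Equiv.refl_apply]
    omega

theorem exists_grid {ι : Type*} [Fintype ι] [DecidableEq ι] (m : ι → ℕ) (a d : ℕ)
    (hcard : Fintype.card ι ≤ a ^ 2) (hW : d * a < ∑ i, m i) :
    ∃ g : ι → ℕ, (∀ j, j < a → (univ.filter (fun i => g i = j)).card ≤ a) ∧ InvGrid a g d m := by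
  classical
  have hc : Fintype.card ι ≤ Fintype.card (Fin a × Fin a) := by
    simpa [Fintype.card_prod, sq] using hcard
  obtain ⟨emb⟩ := Function.Embedding.nonempty_of_card_le hc
  refine ⟨fun i => ((emb i).1 : ℕ), ?_, ?_⟩
  · intro j _
    have : (univ.filter (fun i => ((emb i).1 : ℕ) = j)).card ≤ (univ : Finset (Fin a)).card := by
      apply card_le_card_of_injOn (fun i => (emb i).2) (fun _ _ => mem_univ _)
      intro i hi i' hi' h
      have h1 : ((emb i).1 : ℕ) = j := (mem_filter.1 hi).2
      have h2 : ((emb i').1 : ℕ) = j := (mem_filter.1 hi').2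
      apply emb.injective
      exact Prod.ext (Fin.ext (h1.trans h2.symm)) h
    simpa using this
  · unfold InvGrid
    have : univ.filter (fun i => ((emb i).1 : ℕ) < a) = univ := by
      ext i; simp
    rw [this]
    exact hW

end Vale.Agent.Lib.P279
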