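import Mathlib

/-!
# P279, affine core: unloading along horizontal lines

Polynomials in two variables over `ℂ`, vanishing orders through iterated derivatives,
division by `y - c`, and the general unloading lemma.
-/

open MvPolynomial

namespace Vale.Agent.Lib.P279

/-- `∂_x^a ∂_y^b f`. -/
noncomputable def D2 (a b : ℕ) (f : MvPolynomial (Fin 2) ℂ) : MvPolynomial (Fin 2) ℂ :=
  (pderiv 0)^[a] ((pderiv 1)^[b] f)

/-- all derivatives of order `< m` vanish at `P` -/
def Van (f : MvPolynomial (Fin 2) ℂ) (P : Fin 2 → ℂ) (m : ℕ) : Prop :=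
  ∀ a b, a + b < m → eval P (D2 a b f) = 0

/-- the line `y = c` -/
noncomputable def hline (c : ℂ) : MvPolynomial (Fin 2) ℂ := X 1 - C c

theorem pderiv0_hline_mul (c : ℂ) (g : MvPolynomial (Fin 2) ℂ) :
    pderiv 0 (hline c * g) = hline c * pderiv 0 g := by
  rw [pderiv_mul]
  simp [hline, pderiv_X]

theorem pderiv1_hline_mul (c : ℂ) (g : MvPolynomial (Fin 2) ℂ) :
    pderiv 1 (hline c * g) = g + hline c * pderiv 1 g := by
  rw [pderiv_mul]
  simp [hline, pderiv_X]

theorem iter_pderiv0_hline_mul (c : ℂ) (a : ℕ) (g : MvPolynomial (Fin 2) ℂ) :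
    (pderiv 0)^[a] (hline c * g) = hline c * (pderiv 0)^[a] g := by
  induction a generalizing g with
  | zero => rfl
  | succ a ih => rw [Function.iterate_succ_apply, pderiv0_hline_mul, ih, Function.iterate_succ_apply]

theorem iter_pderiv1_hline_mul (c : ℂ) (b : ℕ) (g : MvPolynomial (Fin 2) ℂ) :
    (pderiv 1)^[b + 1] (hline c * g) =
      hline c * (pderiv 1)^[b + 1] g + ((b : ℂ) + 1) • (pderiv 1)^[b] g := by
  induction b with
  | zero =>
    simp only [Function.iterate_succ, Function.iterate_zero, Function.comp, id]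
    rw [pderiv1_hline_mul]
    simp [add_comm]
  | succ b ih =>
    rw [Function.iterate_succ_apply', ih, map_add, pderiv1_hline_mul, Derivation.map_smul,
      ← Function.iterate_succ_apply' (pderiv 1) (b + 1) g,
      ← Function.iterate_succ_apply' (pderiv 1) b g]
    push_cast
    module

theorem iter_pderiv0_add (a : ℕ) (f g : MvPolynomial (Fin 2) ℂ) :
    (pderiv 0)^[a] (f + g) = (pderiv 0)^[a] f + (pderiv 0)^[a] g := by
  induction a generalizing f g with
  | zero => rfl
  | succ a ih => simp only [Function.iterate_succ_apply, map_add, ih]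

theorem iter_pderiv0_smul (a : ℕ) (t : ℂ) (f : MvPolynomial (Fin 2) ℂ) :
    (pderiv 0)^[a] (t • f) = t • (pderiv 0)^[a] f := by
  induction a generalizing f with
  | zero => rfl
  | succ a ih => simp only [Function.iterate_succ_apply, Derivation.map_smul, ih]

theorem D2_zero_hline_mul (c : ℂ) (a : ℕ) (g : MvPolynomial (Fin 2) ℂ) :
    D2 a 0 (hline c * g) = hline c * D2 a 0 g := by
  simp only [D2, Function.iterate_zero, id, iter_pderiv0_hline_mul]

theorem D2_succ_hline_mul (c : ℂ) (a b : ℕ) (g : MvPolynomial (Fin 2) ℂ) :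
    D2 a (b + 1) (hline c * g) = hline c * D2 a (b + 1) g + ((b : ℂ) + 1) • D2 a b g := by
  simp only [D2]
  rw [iter_pderiv1_hline_mul, iter_pderiv0_add, iter_pderiv0_hline_mul, iter_pderiv0_smul]

theorem eval_hline (c : ℂ) (P : Fin 2 → ℂ) : eval P (hline c) = P 1 - c := by
  simp [hline]

/-- dividing by a line through the point lowers the vanishing order by at most one -/
theorem Van.of_hline_mul_on {c : ℂ} {g : MvPolynomial (Fin 2) ℂ} {P : Fin 2 → ℂ} {m : ℕ}
    (h : Van (hline c * g) P m) (hP : P 1 = c) : Van g P (m - 1) := by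
  intro a b hab
  have h1 := h a (b + 1) (by omega)
  rw [D2_succ_hline_mul, map_add, map_mul, eval_hline, hP, sub_self, zero_mul, zero_add,
    smul_eval] at h1
  have h2 : ((b : ℂ) + 1) ≠ 0 := by exact_mod_cast Nat.succ_ne_zero b
  exact (mul_eq_zero.1 h1).resolve_left h2

/-- dividing by a line not through the point keeps the vanishing order -/
theorem Van.of_hline_mul_off {c : ℂ} {g : MvPolynomial (Fin 2) ℂ} {P : Fin 2 → ℂ} {m : ℕ}
    (h : Van (hline c * g) P m) (hP : P 1 ≠ c) : Van g P m := by
  have hne : P 1 - c ≠ 0 := sub_ne_zero.2 hP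
  intro a b
  induction b generalizing a with
  | zero =>
    intro hab
    have h1 := h a 0 hab
    rw [D2_zero_hline_mul, map_mul, eval_hline] at h1
    exact (mul_eq_zero.1 h1).resolve_left hne
  | succ b ih =>
    intro hab
    have h1 := h a (b + 1) hab
    rw [D2_succ_hline_mul, map_add, map_mul, eval_hline, smul_eval, ih a (by omega), mul_zero,
      add_zero] at h1
    exact (mul_eq_zero.1 h1).resolve_left hne

/-- restriction of `f` to the line `y = c`, as a polynomial in `x` -/
noncomputable def res (c : ℂ) : MvPolynomial (Fin 2) ℂ →ₐ[ℂ] Polynomial ℂ :=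
  aeval ![Polynomial.X, Polynomial.C c]

theorem res_X0 (c : ℂ) : res c (X 0) = Polynomial.X := by simp [res]
theorem res_X1 (c : ℂ) : res c (X 1) = Polynomial.C c := by simp [res]

theorem derivative_res (c : ℂ) (f : MvPolynomial (Fin 2) ℂ) :
    Polynomial.derivative (res c f) = res c (pderiv 0 f) := by
  induction f using MvPolynomial.induction_on with
  | C a => simp [res]
  | add p q hp hq => simp [hp, hq]
  | mul_X p i hp =>
    rw [map_mul, Polynomial.derivative_mul, hp, pderiv_mul, map_add, map_mul, map_mul]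
    fin_cases i
    · simp [res_X0, pderiv_X]
    · simp [res_X1, pderiv_X]

theorem iter_derivative_res (c : ℂ) (k : ℕ) (f : MvPolynomial (Fin 2) ℂ) :
    (Polynomial.derivative)^[k] (res c f) = res c ((pderiv 0)^[k] f) := by
  induction k generalizing f with
  | zero => rfl
  | succ k ih => rw [Function.iterate_succ_apply, derivative_res, ih, Function.iterate_succ_apply]

theorem eval_res (c x : ℂ) (f : MvPolynomial (Fin 2) ℂ) :
    Polynomial.eval x (res c f) = eval ![x, c] f := by
  induction f using MvPolynomial.induction_on with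
  | C a => simp [res]
  | add p q hp hq => simp [hp, hq]
  | mul_X p i hp =>
    rw [map_mul, Polynomial.eval_mul, hp, map_mul]
    fin_cases i
    · simp [res_X0]
    · simp [res_X1]

theorem natDegree_res_le (c : ℂ) (f : MvPolynomial (Fin 2) ℂ) :
    (res c f).natDegree ≤ f.totalDegree := by
  conv_lhs => rw [f.as_sum]
  rw [map_sum]
  apply Polynomial.natDegree_sum_le_of_forall_le
  intro v hv
  have h1 : res c (monomial v (coeff v f)) =
      Polynomial.C (coeff v f) * (Polynomial.X ^ v 0 * Polynomial.C c ^ v 1) := by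
    rw [res, aeval_monomial]
    simp [Finsupp.prod_fintype, Fin.prod_univ_two]
  rw [h1, ← Polynomial.C_pow, mul_comm (Polynomial.X ^ v 0), ← mul_assoc, ← Polynomial.C_mul]
  refine (Polynomial.natDegree_C_mul_X_pow_le _ _).trans ?_
  refine le_trans ?_ (le_totalDegree hv)
  rw [Finsupp.sum_fintype _ _ (fun _ => rfl), Fin.sum_univ_two]
  omega

theorem hline_dvd_of_res_eq_zero (c : ℂ) (f : MvPolynomial (Fin 2) ℂ) (h : res c f = 0) :
    hline c ∣ f := by
  -- both `id` and the substitution `y ↦ c` agree modulo the ideal generated by `y - c`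
  set I : Ideal (MvPolynomial (Fin 2) ℂ) := Ideal.span {hline c} with hI
  let ψ : MvPolynomial (Fin 2) ℂ →ₐ[ℂ] MvPolynomial (Fin 2) ℂ := aeval ![X 0, C c]
  have hψ : ψ f = Polynomial.aeval (X 0 : MvPolynomial (Fin 2) ℂ) (res c f) := by
    have : ψ = (Polynomial.aeval (X 0 : MvPolynomial (Fin 2) ℂ)).comp (res c) := by
      apply MvPolynomial.algHom_ext
      intro i
      fin_cases i
      · simp [ψ, res_X0]
      · simp [ψ, res_X1]
    rw [this]; rfl
  have hq : (Ideal.Quotient.mkₐ ℂ I).comp ψ = (Ideal.Quotient.mkₐ ℂ I).comp (AlgHom.id ℂ _) := by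
    apply MvPolynomial.algHom_ext
    intro i
    fin_cases i
    · simp [ψ]
    · simp only [AlgHom.comp_apply, AlgHom.id_apply, ψ]
      simp only [Fin.mk_one, Fin.isValue, aeval_X, Matrix.cons_val_one, Matrix.cons_val_fin_one]
      rw [Ideal.Quotient.mkₐ_eq_mk, Ideal.Quotient.eq]
      rw [hI, Ideal.mem_span_singleton]
      exact ⟨-1, by simp [hline]⟩
  have h2 := congrArg (fun φ => φ f) hq
  simp only [AlgHom.comp_apply, AlgHom.id_apply] at h2
  rw [hψ, h, map_zero, map_zero] at h2
  have h3 : f ∈ I := by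
    rw [← Ideal.Quotient.eq_zero_iff_mem]
    exact h2.symm
  rwa [hI, Ideal.mem_span_singleton] at h3


theorem le_rootMultiplicity_res {c x : ℂ} {f : MvPolynomial (Fin 2) ℂ} {m : ℕ}
    (h : Van f ![x, c] m) (hne : res c f ≠ 0) : m ≤ (res c f).rootMultiplicity x := by
  rcases Nat.eq_zero_or_pos m with rfl | hm
  · exact Nat.zero_le _
  · obtain ⟨n, rfl⟩ : ∃ n, m = n + 1 := ⟨m - 1, by omega⟩
    rw [Nat.succ_le_iff, Polynomial.lt_rootMultiplicity_iff_isRoot_iterate_derivative hne]
    intro k hk
    rw [Polynomial.IsRoot, iter_derivative_res, eval_res]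
    exact h k 0 (by omega)

theorem sum_rootMultiplicity_le {ι : Type*} [DecidableEq ι] (A : Finset ι) (x : ι → ℂ)
    (hx : Set.InjOn x A) (p : Polynomial ℂ) :
    ∑ i ∈ A, p.rootMultiplicity (x i) ≤ p.natDegree := by
  classical
  refine le_trans ?_ (Polynomial.card_roots' p)
  have h1 : ∑ i ∈ A, p.rootMultiplicity (x i) = ∑ t ∈ A.image x, Multiset.count t p.roots := by
    rw [Finset.sum_image hx]
    simp [Polynomial.count_roots]
  rw [h1]
  calc ∑ t ∈ A.image x, Multiset.count t p.roots
      ≤ ∑ t ∈ A.image x ∪ p.roots.toFinset, Multiset.count t p.roots :=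
        Finset.sum_le_sum_of_subset Finset.subset_union_left
    _ = p.roots.card := Multiset.sum_count_eq_card (fun a ha =>
        Finset.mem_union_right _ (Multiset.mem_toFinset.2 ha))

/-- If the orders of vanishing at points of the line `y = c` add up to more than the degree,
the line is a component. -/
theorem hline_dvd_of_sum_gt {ι : Type*} [DecidableEq ι] (A : Finset ι) (x : ι → ℂ)
    (hx : Set.InjOn x A) (c : ℂ) (m : ι → ℕ) (f : MvPolynomial (Fin 2) ℂ)
    (hv : ∀ i ∈ A, Van f ![x i, c] (m i)) (hd : f.totalDegree < ∑ i ∈ A, m i) :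
    hline c ∣ f := by
  apply hline_dvd_of_res_eq_zero
  by_contra hne
  have h1 : ∑ i ∈ A, m i ≤ ∑ i ∈ A, (res c f).rootMultiplicity (x i) :=
    Finset.sum_le_sum fun i hi => le_rootMultiplicity_res (hv i hi) hne
  have h2 := sum_rootMultiplicity_le A x hx (res c f)
  have h3 := natDegree_res_le c f
  omega

theorem totalDegree_hline (c : ℂ) : (hline c).totalDegree = 1 := by
  have h : hline c = X 1 + C (-c) := by simp [hline, sub_eq_add_neg]
  rw [h]
  apply le_antisymm
  · refine (totalDegree_add _ _).trans ?_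
    simp
  · have : (Finsupp.single (1 : Fin 2) 1) ∈ (X 1 + C (-c) : MvPolynomial (Fin 2) ℂ).support := by
      rw [mem_support_iff, coeff_add, coeff_X, coeff_C]
      have h0 : (0 : Fin 2 →₀ ℕ) ≠ Finsupp.single 1 1 := by
        intro h0
        have := congrArg (fun v => v 1) h0
        simp at this
      simp [h0]
    have h2 := le_totalDegree this
    simpa using h2

theorem hline_ne_zero (c : ℂ) : hline c ≠ 0 := by
  intro h
  have := totalDegree_hline c
  rw [h] at this
  simp at this

/-- **Unloading lemma.** The points are `(x i, g i)` with `x` injective and integer heights `g i`.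
`Inv d m` is any invariant that always provides a horizontal line carrying more than `d`
conditions and that is preserved by splitting off that line. -/
theorem unloading {ι : Type*} [Fintype ι] [DecidableEq ι] (x : ι → ℂ) (hx : Function.Injective x)
    (g : ι → ℕ) (Inv : ℕ → (ι → ℕ) → Prop)
    (hInv : ∀ d m, Inv d m → ∃ j : ℕ, d < ∑ i ∈ Finset.univ.filter (fun i => g i = j), m i ∧
      ∀ d', d = d' + 1 → Inv d' (fun i => if g i = j then m i - 1 else m i)) :
    ∀ (d : ℕ) (m : ι → ℕ), Inv d m → ∀ f : MvPolynomial (Fin 2) ℂ, f.totalDegree ≤ d →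
      (∀ i, Van f ![x i, (g i : ℂ)] (m i)) → f = 0 := by
  intro d
  induction d with
  | zero =>
    intro m hm f hf hv
    by_contra hne
    obtain ⟨j, hj, -⟩ := hInv 0 m hm
    have hdvd : hline (j : ℂ) ∣ f := by
      apply hline_dvd_of_sum_gt (Finset.univ.filter (fun i => g i = j)) x hx.injOn (j : ℂ) m f
      · intro i hi
        have := hv i
        rwa [(Finset.mem_filter.1 hi).2] at this
      · omega
    obtain ⟨q, rfl⟩ := hdvd
    have hq : q ≠ 0 := fun h => hne (by rw [h, mul_zero])
    rw [totalDegree_mul_of_isDomain (hline_ne_zero _) hq, totalDegree_hline] at hf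
    omega
  | succ d ih =>
    intro m hm f hf hv
    by_contra hne
    obtain ⟨j, hj, hnext⟩ := hInv (d + 1) m hm
    have hdvd : hline (j : ℂ) ∣ f := by
      apply hline_dvd_of_sum_gt (Finset.univ.filter (fun i => g i = j)) x hx.injOn (j : ℂ) m f
      · intro i hi
        have := hv i
        rwa [(Finset.mem_filter.1 hi).2] at this
      · omega
    obtain ⟨q, rfl⟩ := hdvd
    have hq : q ≠ 0 := fun h => hne (by rw [h, mul_zero])
    rw [totalDegree_mul_of_isDomain (hline_ne_zero _) hq, totalDegree_hline] at hf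
    apply hq
    apply ih _ (hnext d rfl) q (by omega)
    intro i
    by_cases hgi : g i = j
    · rw [if_pos hgi]
      apply (hv i).of_hline_mul_on
      simp [hgi]
    · rw [if_neg hgi]
      apply (hv i).of_hline_mul_off
      simp only [Matrix.cons_val_one, Matrix.cons_val_fin_one]
      exact_mod_cast hgi

end Vale.Agent.Lib.P279
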