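import Mathlib

/-!
# P279: plane curves through very general points, basic definitions

The complex projective plane is `Projectivization ℂ (Fin 3 → ℂ)`; a plane curve of degree `d` is a
nonzero homogeneous polynomial `F : MvPolynomial (Fin 3) ℂ` of degree `d`.
-/

open MvPolynomial

namespace Vale.Agent.Lib.P279

/-- The iterated derivative `∂_x^a ∂_y^b ∂_z^c F`. -/
noncomputable def D3 (a b c : ℕ) (F : MvPolynomial (Fin 3) ℂ) : MvPolynomial (Fin 3) ℂ :=
  (pderiv 0)^[a] ((pderiv 1)^[b] ((pderiv 2)^[c] F))

/-- `mult_p F ≥ m`: every derivative of `F` of order `< m` vanishes at (homogeneous coordinates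
of) the point `p` of the projective plane. -/
def MultGE (F : MvPolynomial (Fin 3) ℂ) (p : Projectivization ℂ (Fin 3 → ℂ)) (m : ℕ) : Prop :=
  ∀ a b c : ℕ, a + b + c < m → eval p.rep (D3 a b c F) = 0

/-- Homogeneous coordinates of an `r`-tuple of points of the plane, as one vector of `3 r`
complex numbers. -/
noncomputable def coords {r : ℕ} (p : Fin r → Projectivization ℂ (Fin 3 → ℂ)) :
    Fin r × Fin 3 → ℂ := fun ik => (p ik.1).rep ik.2

/-- `G`, a polynomial in the `3 r` coordinates, is multihomogeneous: homogeneous of some degree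
`e i` in the three coordinates of the `i`-th point, for each `i`. -/
def IsMultihomogeneous {r : ℕ} (G : MvPolynomial (Fin r × Fin 3) ℂ) : Prop :=
  ∃ e : Fin r → ℕ, ∀ (t : Fin r → ℂ) (v : Fin r × Fin 3 → ℂ),
    eval (fun ik => t ik.1 * v ik) G = (∏ i, t i ^ e i) * eval v G

/-- Zariski closed subsets of `(ℙ²)^r`: common zero loci of multihomogeneous polynomials. -/
def IsZariskiClosed {r : ℕ} (Z : Set (Fin r → Projectivization ℂ (Fin 3 → ℂ))) : Prop :=
  ∃ S : Set (MvPolynomial (Fin r × Fin 3) ℂ), (∀ G ∈ S, IsMultihomogeneous G) ∧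
    Z = {p | ∀ G ∈ S, eval (coords p) G = 0}

/-- `Q` holds for very general `r`-tuples of pairwise distinct points: it holds for all tuples of
pairwise distinct points outside a countable union of Zariski closed sets, none of which contains
all tuples of pairwise distinct points. -/
def VeryGeneral (r : ℕ) (Q : (Fin r → Projectivization ℂ (Fin 3 → ℂ)) → Prop) : Prop :=
  ∃ Zs : Set (Set (Fin r → Projectivization ℂ (Fin 3 → ℂ))), Zs.Countable ∧
    (∀ Z ∈ Zs, IsZariskiClosed Z ∧ ∃ p, Function.Injective p ∧ p ∉ Z) ∧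
    ∀ p, Function.Injective p → (∀ Z ∈ Zs, p ∉ Z) → Q p

end Vale.Agent.Lib.P279
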