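import Vale.Agent.Lib.P279.Core
import Vale.Agent.Lib.P279.Comb

namespace Vale.Agent.Lib.P279

open Finset MvPolynomial

/-- **Special position.** If all multiplicities are at most `M`, `(13 M + 8)^2 ≤ r` and
`d √r ≤ ∑ m i`, then for suitable integer heights `y i` no nonzero polynomial of degree `≤ d`
vanishes to order `m i` at the points `(i, y i)`. -/
theorem special (r d M : ℕ) (m : Fin r → ℕ) (hd : 1 ≤ d) (hM : ∀ i, m i ≤ M)
    (hr : (13 * M + 8) ^ 2 ≤ r) (hW : (d : ℝ) * Real.sqrt r ≤ ((∑ i, m i : ℕ) : ℝ)) :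
    ∃ y : Fin r → ℕ, ∀ f : MvPolynomial (Fin 2) ℂ, f.totalDegree ≤ d →
      (∀ i : Fin r, Van f ![((i : ℕ) : ℂ), (y i : ℂ)] (m i)) → f = 0 := by
  classical
  let ι' := {i : Fin r // m i ≠ 0}
  let m' : ι' → ℕ := fun s => m s.1
  have hsum : ∑ s : ι', m' s = ∑ i, m i := by
    have h1 : ∑ i ∈ univ.filter (fun i => m i ≠ 0), m i = ∑ s : ι', m' s :=
      sum_subtype _ (fun x => by simp) _
    rw [← h1, sum_filter_ne_zero]
  have hcard : Fintype.card ι' ≤ r := by
    have h := Fintype.card_subtype_le (fun i : Fin r => m i ≠ 0)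
    rw [Fintype.card_fin] at h
    exact h
  have hx : Function.Injective (fun s : ι' => (((s.1 : Fin r) : ℕ) : ℂ)) := by
    intro s t hst
    have hst' : (((s.1 : Fin r) : ℕ) : ℂ) = (((t.1 : Fin r) : ℕ) : ℂ) := hst
    have : ((s.1 : Fin r) : ℕ) = ((t.1 : Fin r) : ℕ) := by exact_mod_cast hst'
    exact Subtype.ext (Fin.ext this)
  have hsqrt : (13 * (M : ℝ) + 8) ≤ Real.sqrt r := by
    apply Real.le_sqrt_of_sq_le
    exact_mod_cast hr
  -- it suffices to find heights on the support with an invariant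
  suffices h : ∃ (g' : ι' → ℕ) (Inv : ℕ → (ι' → ℕ) → Prop), Inv d m' ∧
      ∀ d m, Inv d m → ∃ j : ℕ, d < ∑ i ∈ Finset.univ.filter (fun i => g' i = j), m i ∧
      ∀ d', d = d' + 1 → Inv d' (fun i => if g' i = j then m i - 1 else m i) by
    obtain ⟨g', Inv, h0, hstep⟩ := h
    refine ⟨fun i => if h : m i ≠ 0 then g' ⟨i, h⟩ else 0, ?_⟩
    intro f hf hv
    apply unloading _ hx g' Inv hstep d m' h0 f hf
    intro s
    have := hv s.1
    simp only [dif_pos s.2] at this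
    exact this
  by_cases hcase : (13 * M + 7) ^ 2 ≤ Fintype.card ι'
  · have hW2 : d ^ 2 * Fintype.card ι' ≤ (∑ s, m' s) ^ 2 := by
      rw [hsum]
      have h1 : ((d : ℝ) * Real.sqrt r) ^ 2 ≤ ((∑ i, m i : ℕ) : ℝ) ^ 2 :=
        pow_le_pow_left₀ (by positivity) hW 2
      rw [mul_pow, Real.sq_sqrt (by positivity)] at h1
      have h2 : d ^ 2 * r ≤ (∑ i, m i) ^ 2 := by exact_mod_cast h1
      exact (Nat.mul_le_mul_left _ hcard).trans h2
    obtain ⟨n, g', hc, hinv⟩ := exists_AP m' M d (fun s => Nat.pos_of_ne_zero s.2)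
      (fun s => hM s.1) hcase hW2
    exact ⟨g', InvAP n g', hinv, InvAP_step n g' hc⟩
  · have hcase' : Fintype.card ι' ≤ (13 * M + 7) ^ 2 := (not_le.1 hcase).le
    have hW2 : d * (13 * M + 7) < ∑ s, m' s := by
      rw [hsum]
      have h1 : (d : ℝ) * (13 * M + 7) < ((∑ i, m i : ℕ) : ℝ) := by
        have hd' : (1 : ℝ) ≤ d := by exact_mod_cast hd
        nlinarith
      exact_mod_cast h1
    obtain ⟨g', hc, hinv⟩ := exists_grid m' (13 * M + 7) d hcase' hW2
    exact ⟨g', InvGrid (13 * M + 7) g', hinv, InvGrid_step (13 * M + 7) g' hc⟩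

end Vale.Agent.Lib.P279
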