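import Vale.Agent.Lib.P279.Defs
import Vale.Agent.Lib.P279.Special

namespace Vale.Agent.Lib.P279

open MvPolynomial

/-- dehomogenization `z = 1` -/
noncomputable def dehom : MvPolynomial (Fin 3) ℂ →ₐ[ℂ] MvPolynomial (Fin 2) ℂ :=
  aeval ![X 0, X 1, 1]

theorem dehom_X0 : dehom (X 0) = X 0 := by simp [dehom]
theorem dehom_X1 : dehom (X 1) = X 1 := by simp [dehom]
theorem dehom_X2 : dehom (X 2) = 1 := by simp [dehom]

theorem eval_dehom (P : Fin 2 → ℂ) (F : MvPolynomial (Fin 3) ℂ) :
    eval P (dehom F) = eval ![P 0, P 1, 1] F := by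
  induction F using MvPolynomial.induction_on with
  | C a => simp [dehom]
  | add p q hp hq => simp [hp, hq]
  | mul_X p i hp =>
    rw [map_mul, map_mul, hp, map_mul]
    fin_cases i
    · simp [dehom_X0]
    · simp [dehom_X1]
    · simp [dehom_X2]

theorem pderiv0_dehom (F : MvPolynomial (Fin 3) ℂ) : pderiv 0 (dehom F) = dehom (pderiv 0 F) := by
  induction F using MvPolynomial.induction_on with
  | C a => simp [dehom]
  | add p q hp hq => simp [hp, hq]
  | mul_X p i hp =>
    rw [map_mul, pderiv_mul, hp, pderiv_mul, map_add, map_mul, map_mul]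
    fin_cases i
    · simp [dehom_X0, pderiv_X]
    · simp [dehom_X1, pderiv_X]
    · simp [dehom_X2, pderiv_X]

theorem pderiv1_dehom (F : MvPolynomial (Fin 3) ℂ) : pderiv 1 (dehom F) = dehom (pderiv 1 F) := by
  induction F using MvPolynomial.induction_on with
  | C a => simp [dehom]
  | add p q hp hq => simp [hp, hq]
  | mul_X p i hp =>
    rw [map_mul, pderiv_mul, hp, pderiv_mul, map_add, map_mul, map_mul]
    fin_cases i
    · simp [dehom_X0, pderiv_X]
    · simp [dehom_X1, pderiv_X]
    · simp [dehom_X2, pderiv_X]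

theorem D2_dehom (a b : ℕ) (F : MvPolynomial (Fin 3) ℂ) : D2 a b (dehom F) = dehom (D3 a b 0 F) := by
  have h1 : ∀ (b : ℕ) (F : MvPolynomial (Fin 3) ℂ),
      (pderiv 1)^[b] (dehom F) = dehom ((pderiv 1)^[b] F) := by
    intro b
    induction b with
    | zero => intro F; rfl
    | succ b ih => intro F; rw [Function.iterate_succ_apply, pderiv1_dehom, ih,
        Function.iterate_succ_apply]
  have h0 : ∀ (a : ℕ) (F : MvPolynomial (Fin 3) ℂ),
      (pderiv 0)^[a] (dehom F) = dehom ((pderiv 0)^[a] F) := by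
    intro a
    induction a with
    | zero => intro F; rfl
    | succ a ih => intro F; rw [Function.iterate_succ_apply, pderiv0_dehom, ih,
        Function.iterate_succ_apply]
  simp only [D2, D3, Function.iterate_zero, id, h1, h0]

theorem totalDegree_dehom_le (F : MvPolynomial (Fin 3) ℂ) :
    (dehom F).totalDegree ≤ F.totalDegree := by
  conv_lhs => rw [F.as_sum]
  rw [map_sum]
  apply totalDegree_finsetSum_le
  intro v hv
  have h1 : dehom (monomial v (coeff v F)) = C (coeff v F) * (X 0 ^ v 0 * X 1 ^ v 1) := by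
    rw [dehom, aeval_monomial]
    simp [Finsupp.prod_fintype, Fin.prod_univ_three]
  rw [h1]
  refine (totalDegree_mul _ _).trans ?_
  rw [totalDegree_C, zero_add]
  refine (totalDegree_mul _ _).trans ?_
  rw [totalDegree_X_pow, totalDegree_X_pow]
  refine le_trans ?_ (le_totalDegree hv)
  rw [Finsupp.sum_fintype _ _ (fun _ => rfl), Fin.sum_univ_three]
  omega

theorem eval_smul_of_isHomogeneous {σ : Type*} {F : MvPolynomial σ ℂ} {n : ℕ}
    (hF : F.IsHomogeneous n) (t : ℂ) (v : σ → ℂ) :
    eval (fun k => t * v k) F = t ^ n * eval v F := by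
  rw [eval_eq, eval_eq, Finset.mul_sum]
  apply Finset.sum_congr rfl
  intro s hs
  have hdeg : ∑ i ∈ s.support, s i = n := by
    have := hF (mem_support_iff.1 hs)
    rw [Finsupp.weight_apply] at this
    simpa [Finsupp.sum] using this
  simp only [mul_pow, Finset.prod_mul_distrib, Finset.prod_pow_eq_pow_sum, hdeg]
  ring

theorem eq_zero_of_dehom_eq_zero {F : MvPolynomial (Fin 3) ℂ} {d : ℕ} (hF : F.IsHomogeneous d)
    (h : dehom F = 0) : F = 0 := by
  have h1 : X 2 * F = 0 := by
    apply MvPolynomial.funext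
    intro v
    rw [map_mul, eval_X, map_zero]
    by_cases hz : v 2 = 0
    · rw [hz, zero_mul]
    · have h2 : eval ![v 0 / v 2, v 1 / v 2] (dehom F) = 0 := by rw [h, map_zero]
      rw [eval_dehom] at h2
      have h3 := eval_smul_of_isHomogeneous hF (v 2) ![v 0 / v 2, v 1 / v 2, 1]
      have h4 : (fun k => v 2 * (![v 0 / v 2, v 1 / v 2, 1] : Fin 3 → ℂ) k) = v := by
        funext k
        fin_cases k
        · simp; field_simp
        · simp; field_simp
        · simp
      simp only [Matrix.cons_val_zero, Matrix.cons_val_one] at h2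
      rw [h4, h2, mul_zero] at h3
      rw [h3, mul_zero]
  rcases mul_eq_zero.1 h1 with h2 | h2
  · exact absurd h2 (X_ne_zero 2)
  · exact h2

section Rows

open Matrix

theorem exists_rows {R' : Type*} [Fintype R'] {N : ℕ} (A : Matrix R' (Fin N) ℂ)
    (h : ∀ c : Fin N → ℂ, A *ᵥ c = 0 → c = 0) :
    ∃ ρ : Fin N → R', (A.submatrix ρ id).det ≠ 0 := by
  classical
  have hspan : (⊤ : Submodule ℂ (Fin N → ℂ)) ≤ Submodule.span ℂ (Set.range (fun ρ => A ρ)) := by
    rw [top_le_iff]
    by_contra hne
    obtain ⟨f, hf0, hf⟩ := Submodule.exists_le_ker_of_lt_top _ (lt_top_iff_ne_top.2 hne)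
    apply hf0
    have hc : (fun k : Fin N => f (fun j => if k = j then 1 else 0)) = 0 := by
      apply h
      funext ρ
      have h1 : f (A ρ) = 0 := hf (Submodule.subset_span ⟨ρ, rfl⟩)
      rw [LinearMap.pi_apply_eq_sum_univ f (A ρ)] at h1
      simpa [Matrix.mulVec, dotProduct] using h1
    apply LinearMap.ext
    intro x
    rw [LinearMap.pi_apply_eq_sum_univ f x]
    simp only [LinearMap.zero_apply]
    apply Finset.sum_eq_zero
    intro k _
    have := congrFun hc k
    simp only [Pi.zero_apply] at this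
    rw [this, smul_zero]
  let b := Module.Basis.ofSpan hspan
  have := FiniteDimensional.fintypeBasisIndex b
  have hcard := Module.finrank_eq_card_basis b
  rw [Module.finrank_fin_fun] at hcard
  let e := (Fintype.equivFinOfCardEq hcard.symm).symm
  have hmem : ∀ k : Fin N, ∃ ρ, A ρ = b (e k) := by
    intro k
    have : b (e k) ∈ Set.range (fun ρ => A ρ) := Module.Basis.ofSpan_subset hspan ⟨e k, rfl⟩
    exact this
  choose ρ hρ using hmem
  refine ⟨ρ, ?_⟩
  have hli : LinearIndependent ℂ (A.submatrix ρ id).row := by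
    have h1 : (A.submatrix ρ id).row = b ∘ e := by
      funext k
      exact hρ k
    rw [h1]
    exact b.linearIndependent.comp e e.injective
  have hu := Matrix.linearIndependent_rows_iff_isUnit.1 hli
  exact ((Matrix.isUnit_iff_isUnit_det _).1 hu).ne_zero


end Rows

end Vale.Agent.Lib.P279
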