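import Vale.Agent.Lib.P279.Dehom

namespace Vale.Agent.Lib.P279

open MvPolynomial

theorem special_proj (r d M : ℕ) (m : Fin r → ℕ) (hd : 1 ≤ d) (hM : ∀ i, m i ≤ M)
    (hr : (13 * M + 8) ^ 2 ≤ r) (hW : (d : ℝ) * Real.sqrt r ≤ ((∑ i, m i : ℕ) : ℝ)) :
    ∃ y : Fin r → ℕ, ∀ F : MvPolynomial (Fin 3) ℂ, F.IsHomogeneous d →
      (∀ (i : Fin r) (a b c : ℕ), a + b + c < m i →
        eval ![((i : ℕ) : ℂ), (y i : ℂ), 1] (D3 a b c F) = 0) → F = 0 := by
  obtain ⟨y, hy⟩ := special r d M m hd hM hr hW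
  refine ⟨y, fun F hF hv => ?_⟩
  apply eq_zero_of_dehom_eq_zero hF
  apply hy _ ((totalDegree_dehom_le F).trans hF.totalDegree_le)
  intro i a b hab
  rw [D2_dehom, eval_dehom]
  exact hv i a b 0 (by omega)

/-- `D3` as a linear map -/
noncomputable def D3lin (a b c : ℕ) : MvPolynomial (Fin 3) ℂ →ₗ[ℂ] MvPolynomial (Fin 3) ℂ :=
  ((pderiv 0 : Derivation ℂ _ _).toLinearMap ^ a) ∘ₗ ((pderiv 1 : Derivation ℂ _ _).toLinearMap ^ b)
    ∘ₗ ((pderiv 2 : Derivation ℂ _ _).toLinearMap ^ c)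

theorem D3lin_apply (a b c : ℕ) (F : MvPolynomial (Fin 3) ℂ) : D3lin a b c F = D3 a b c F := by
  simp only [D3lin, D3, LinearMap.comp_apply, Module.End.pow_apply]
  rfl

theorem iter_pderiv_isHomogeneous (i : Fin 3) (a : ℕ) {F : MvPolynomial (Fin 3) ℂ} {n : ℕ}
    (hF : F.IsHomogeneous n) : ((pderiv i)^[a] F).IsHomogeneous (n - a) := by
  induction a with
  | zero => simpa using hF
  | succ a ih =>
    rw [Function.iterate_succ_apply']
    have := ih.pderiv (i := i)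
    rwa [Nat.sub_sub] at this

theorem D3_isHomogeneous (a b c : ℕ) {F : MvPolynomial (Fin 3) ℂ} {n : ℕ}
    (hF : F.IsHomogeneous n) : (D3 a b c F).IsHomogeneous (n - (a + b + c)) := by
  have h := iter_pderiv_isHomogeneous 0 a (iter_pderiv_isHomogeneous 1 b
    (iter_pderiv_isHomogeneous 2 c hF))
  have e : n - c - b - a = n - (a + b + c) := by omega
  rw [e] at h
  exact h

variable {r : ℕ}

/-- one vanishing condition on `H`, as a polynomial in the coordinates of the points -/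
noncomputable def condPoly (m : Fin r → ℕ) (K : ℕ) (ρ : Fin r × (Fin K × Fin K × Fin K))
    (H : MvPolynomial (Fin 3) ℂ) : MvPolynomial (Fin r × Fin 3) ℂ :=
  if (ρ.2.1 : ℕ) + ρ.2.2.1 + ρ.2.2.2 < m ρ.1 then
    rename (Prod.mk ρ.1) (D3 ρ.2.1 ρ.2.2.1 ρ.2.2.2 H) else 0

theorem eval_condPoly (m : Fin r → ℕ) (K : ℕ) (ρ : Fin r × (Fin K × Fin K × Fin K))
    (H : MvPolynomial (Fin 3) ℂ) (w : Fin r × Fin 3 → ℂ) :
    eval w (condPoly m K ρ H) = if (ρ.2.1 : ℕ) + ρ.2.2.1 + ρ.2.2.2 < m ρ.1 then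
      eval (fun k => w (ρ.1, k)) (D3 ρ.2.1 ρ.2.2.1 ρ.2.2.2 H) else 0 := by
  unfold condPoly
  split_ifs
  · rw [eval_rename]; rfl
  · simp

theorem eval_condPoly_sum (m : Fin r → ℕ) (K : ℕ) (ρ : Fin r × (Fin K × Fin K × Fin K))
    {N : ℕ} (H : Fin N → MvPolynomial (Fin 3) ℂ) (c : Fin N → ℂ) (w : Fin r × Fin 3 → ℂ) :
    eval w (condPoly m K ρ (∑ k, c k • H k)) = ∑ k, eval w (condPoly m K ρ (H k)) * c k := by
  simp only [eval_condPoly]
  split_ifs
  · rw [← D3lin_apply, map_sum, map_sum]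
    apply Finset.sum_congr rfl
    intro k _
    rw [map_smul, smul_eval, D3lin_apply, mul_comm]
  · simp

theorem eval_condPoly_scale (m : Fin r → ℕ) (K : ℕ) (ρ : Fin r × (Fin K × Fin K × Fin K))
    {H : MvPolynomial (Fin 3) ℂ} {d : ℕ} (hH : H.IsHomogeneous d) (t : Fin r → ℂ)
    (v : Fin r × Fin 3 → ℂ) :
    eval (fun ik => t ik.1 * v ik) (condPoly m K ρ H) =
      t ρ.1 ^ (d - ((ρ.2.1 : ℕ) + ρ.2.2.1 + ρ.2.2.2)) * eval v (condPoly m K ρ H) := by
  simp only [eval_condPoly]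
  split_ifs
  · exact eval_smul_of_isHomogeneous (D3_isHomogeneous _ _ _ hH) (t ρ.1) (fun k => v (ρ.1, k))
  · simp

theorem exists_hypersurface (d : ℕ) (m : Fin r → ℕ) (v0 : Fin r → Fin 3 → ℂ)
    (h0 : ∀ F : MvPolynomial (Fin 3) ℂ, F.IsHomogeneous d →
      (∀ (i : Fin r) (a b c : ℕ), a + b + c < m i → eval (v0 i) (D3 a b c F) = 0) → F = 0) :
    ∃ G : MvPolynomial (Fin r × Fin 3) ℂ, IsMultihomogeneous G ∧
      eval (fun ik => v0 ik.1 ik.2) G ≠ 0 ∧
      ∀ w : Fin r × Fin 3 → ℂ, (∃ F : MvPolynomial (Fin 3) ℂ, F ≠ 0 ∧ F.IsHomogeneous d ∧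
        ∀ (i : Fin r) (a b c : ℕ), a + b + c < m i →
          eval (fun k => w (i, k)) (D3 a b c F) = 0) → eval w G = 0 := by
  classical
  have : Module.Finite ℂ (homogeneousSubmodule (Fin 3) ℂ d) :=
    Module.Finite.iff_fg.2 (homogeneousSubmodule_fg (Fin 3) ℂ d)
  let bs := Module.finBasis ℂ (homogeneousSubmodule (Fin 3) ℂ d)
  set N := Module.finrank ℂ (homogeneousSubmodule (Fin 3) ℂ d) with hN
  let H : Fin N → MvPolynomial (Fin 3) ℂ := fun k => (bs k : MvPolynomial (Fin 3) ℂ)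
  have hH : ∀ k, (H k).IsHomogeneous d := fun k => (bs k).2
  set K := (∑ i, m i) + 1 with hK
  have hmK : ∀ i, m i < K := by
    intro i
    have := Finset.single_le_sum (f := m) (fun _ _ => Nat.zero_le _) (Finset.mem_univ i)
    omega
  -- the matrix of conditions
  let A : (Fin r × Fin 3 → ℂ) → Matrix (Fin r × (Fin K × Fin K × Fin K)) (Fin N) ℂ :=
    fun w => Matrix.of fun ρ k => eval w (condPoly m K ρ (H k))
  have hA : ∀ w c ρ, (Matrix.mulVec (A w) c) ρ = eval w (condPoly m K ρ (∑ k, c k • H k)) := by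
    intro w c ρ
    rw [eval_condPoly_sum]
    rfl
  have hsumH : ∀ c : Fin N → ℂ, (∑ k, c k • H k) =
      ((∑ k, c k • bs k : homogeneousSubmodule (Fin 3) ℂ d) : MvPolynomial (Fin 3) ℂ) := by
    intro c
    simp [H]
  set w0 : Fin r × Fin 3 → ℂ := fun ik => v0 ik.1 ik.2 with hw0
  have hinj : ∀ c : Fin N → ℂ, Matrix.mulVec (A w0) c = 0 → c = 0 := by
    intro c hc
    have hF0 : (∑ k, c k • H k) = 0 := by
      apply h0
      · rw [hsumH]; exact (∑ k, c k • bs k : homogeneousSubmodule (Fin 3) ℂ d).2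
      · intro i a b c' habc
        have ha : a < K := by have := hmK i; omega
        have hb : b < K := by have := hmK i; omega
        have hc' : c' < K := by have := hmK i; omega
        have h1 := congrFun hc (i, (⟨a, ha⟩, ⟨b, hb⟩, ⟨c', hc'⟩))
        rw [hA, eval_condPoly] at h1
        simp only [Pi.zero_apply] at h1
        rw [if_pos habc] at h1
        exact h1
    rw [hsumH] at hF0
    have h2 : (∑ k, c k • bs k : homogeneousSubmodule (Fin 3) ℂ d) = 0 := Subtype.ext hF0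
    have h3 := Fintype.linearIndependent_iff.1 bs.linearIndependent c h2
    funext k
    exact h3 k
  obtain ⟨ρ, hρ⟩ := exists_rows (A w0) hinj
  let Mx : Matrix (Fin N) (Fin N) (MvPolynomial (Fin r × Fin 3) ℂ) :=
    Matrix.of fun k' k => condPoly m K (ρ k') (H k)
  have hdet : ∀ w, eval w Mx.det = ((A w).submatrix ρ id).det := by
    intro w
    rw [RingHom.map_det]
    rfl
  refine ⟨Mx.det, ?_, ?_, ?_⟩
  · -- multihomogeneous
    let ex : Fin N → ℕ := fun k' => d - (((ρ k').2.1 : ℕ) + (ρ k').2.2.1 + (ρ k').2.2.2)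
    refine ⟨fun i => ∑ k' ∈ Finset.univ.filter (fun k' => (ρ k').1 = i), ex k', ?_⟩
    intro t v
    rw [hdet, hdet]
    have h1 : ((A (fun ik => t ik.1 * v ik)).submatrix ρ id) =
        Matrix.of fun k' k => (t (ρ k').1 ^ ex k') * ((A v).submatrix ρ id) k' k := by
      ext k' k
      exact eval_condPoly_scale m K (ρ k') (hH k) t v
    rw [h1, Matrix.det_mul_column]
    congr 1
    have h2 : ∀ i, t i ^ (∑ k' ∈ Finset.univ.filter (fun k' => (ρ k').1 = i), ex k') =
        ∏ k' ∈ Finset.univ.filter (fun k' => (ρ k').1 = i), t (ρ k').1 ^ ex k' := by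
      intro i
      rw [← Finset.prod_pow_eq_pow_sum]
      apply Finset.prod_congr rfl
      intro k' hk'
      rw [(Finset.mem_filter.1 hk').2]
    simp only [h2]
    exact (Finset.prod_fiberwise Finset.univ (fun k' => (ρ k').1) (fun k' => t (ρ k').1 ^ ex k')).symm
  · rw [hdet]; exact hρ
  · rintro w ⟨F, hF0, hFd, hFv⟩
    rw [hdet, ← Matrix.exists_mulVec_eq_zero_iff]
    let Fs : homogeneousSubmodule (Fin 3) ℂ d := ⟨F, hFd⟩
    refine ⟨fun k => bs.repr Fs k, ?_, ?_⟩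
    · intro hc
      apply hF0
      have h1 : bs.repr Fs = 0 := by
        ext k
        exact congrFun hc k
      have h2 : Fs = 0 := by simpa using h1
      exact congrArg Subtype.val h2
    · funext k'
      have h1 : (Matrix.mulVec ((A w).submatrix ρ id) (fun k => bs.repr Fs k)) k' =
          (Matrix.mulVec (A w) (fun k => bs.repr Fs k)) (ρ k') := rfl
      rw [h1, hA, hsumH, bs.sum_repr Fs, eval_condPoly]
      simp only [Pi.zero_apply]
      split_ifs with hcond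
      · exact hFv _ _ _ _ hcond
      · rfl

end Vale.Agent.Lib.P279
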