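import Vale.Agent.Lib.P279.Frame

namespace Vale.Agent.Lib.P279

open MvPolynomial

theorem exists_good_hypersurface (r : ℕ) (hr : 10 ≤ r) (d : ℕ) (m : Fin r → ℕ) (hd : 1 ≤ d)
    (hm : ∀ i, (13 * m i + 8) ^ 2 ≤ r)
    (hW : (d : ℝ) * Real.sqrt r ≤ ((∑ i, m i : ℕ) : ℝ)) :
    ∃ G : MvPolynomial (Fin r × Fin 3) ℂ, IsMultihomogeneous G ∧
      (∃ p : Fin r → Projectivization ℂ (Fin 3 → ℂ), Function.Injective p ∧
        eval (coords p) G ≠ 0) ∧
      ∀ w : Fin r × Fin 3 → ℂ, (∃ F : MvPolynomial (Fin 3) ℂ, F ≠ 0 ∧ F.IsHomogeneous d ∧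
        ∀ (i : Fin r) (a b c : ℕ), a + b + c < m i →
          eval (fun k => w (i, k)) (D3 a b c F) = 0) → eval w G = 0 := by
  classical
  have : Nonempty (Fin r) := ⟨⟨0, by omega⟩⟩
  obtain ⟨i0, hi0⟩ := Finite.exists_max m
  obtain ⟨y, hy⟩ := special_proj r d (m i0) m hd hi0 (hm i0) hW
  let v0 : Fin r → Fin 3 → ℂ := fun i => ![((i : ℕ) : ℂ), (y i : ℂ), 1]
  obtain ⟨G, hG1, hG2, hG3⟩ := exists_hypersurface d m v0 hy
  refine ⟨G, hG1, ?_, hG3⟩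
  have hv0 : ∀ i, v0 i ≠ 0 := by
    intro i h
    have := congrFun h 2
    simp [v0] at this
  refine ⟨fun i => Projectivization.mk ℂ (v0 i) (hv0 i), ?_, ?_⟩
  · intro i j hij
    rw [Projectivization.mk_eq_mk_iff] at hij
    obtain ⟨a, ha⟩ := hij
    have h2 := congrFun ha 2
    have h0 := congrFun ha 0
    simp only [v0, Pi.smul_apply, Matrix.cons_val_two, Matrix.tail_cons, Matrix.head_cons,
      Matrix.cons_val_zero, Units.smul_def, smul_eq_mul, mul_one] at h2 h0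
    rw [h2, one_mul] at h0
    have : (j : ℕ) = (i : ℕ) := by exact_mod_cast h0
    exact Fin.ext this.symm
  · have hrep : ∀ i, ∃ a : ℂˣ, a • v0 i = (Projectivization.mk ℂ (v0 i) (hv0 i)).rep :=
      fun i => Projectivization.exists_smul_eq_mk_rep ℂ (v0 i) (hv0 i)
    choose a ha using hrep
    have hc : coords (fun i => Projectivization.mk ℂ (v0 i) (hv0 i)) =
        fun ik => ((a ik.1 : ℂˣ) : ℂ) * v0 ik.1 ik.2 := by
      funext ik
      unfold coords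
      rw [← ha ik.1]
      simp [Units.smul_def]
    obtain ⟨e, he⟩ := hG1
    rw [hc, he (fun i => ((a i : ℂˣ) : ℂ)) (fun ik => v0 ik.1 ik.2)]
    apply mul_ne_zero _ hG2
    apply Finset.prod_ne_zero_iff.2
    intro i _
    exact pow_ne_zero _ (a i).ne_zero

/-- **Nagata's inequality for small multiplicities.** -/
theorem nagata_small_mult (r : ℕ) (hr : 10 ≤ r) :
    VeryGeneral r (fun p => ∀ (d : ℕ) (F : MvPolynomial (Fin 3) ℂ) (m : Fin r → ℕ), 1 ≤ d →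
      F ≠ 0 → F.IsHomogeneous d → (∀ i, MultGE F (p i) (m i)) →
      (∀ i, (13 * m i + 8) ^ 2 ≤ r) → (∑ i, (m i : ℝ)) < d * Real.sqrt r) := by
  classical
  let Cov : Set (ℕ × (Fin r → ℕ)) := {x | 1 ≤ x.1 ∧ (∀ i, (13 * x.2 i + 8) ^ 2 ≤ r) ∧
    (x.1 : ℝ) * Real.sqrt r ≤ ((∑ i, x.2 i : ℕ) : ℝ)}
  have key : ∀ x : Cov, ∃ G : MvPolynomial (Fin r × Fin 3) ℂ, IsMultihomogeneous G ∧
      (∃ p : Fin r → Projectivization ℂ (Fin 3 → ℂ), Function.Injective p ∧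
        eval (coords p) G ≠ 0) ∧
      ∀ w : Fin r × Fin 3 → ℂ, (∃ F : MvPolynomial (Fin 3) ℂ, F ≠ 0 ∧ F.IsHomogeneous x.1.1 ∧
        ∀ (i : Fin r) (a b c : ℕ), a + b + c < x.1.2 i →
          eval (fun k => w (i, k)) (D3 a b c F) = 0) → eval w G = 0 :=
    fun x => exists_good_hypersurface r hr x.1.1 x.1.2 x.2.1 x.2.2.1 x.2.2.2
  choose G hG1 hG2 hG3 using key
  refine ⟨Set.range (fun x : Cov => {p | ∀ G' ∈ ({G x} : Set _), eval (coords p) G' = 0}),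
    Set.countable_range _, ?_, ?_⟩
  · rintro Z ⟨x, rfl⟩
    refine ⟨⟨{G x}, ?_, rfl⟩, ?_⟩
    · intro G' hG'
      rw [Set.mem_singleton_iff.1 hG']
      exact hG1 x
    · obtain ⟨p, hp1, hp2⟩ := hG2 x
      refine ⟨p, hp1, ?_⟩
      intro hmem
      exact hp2 (hmem (G x) rfl)
  · intro p _ hpZ d F m hd hF0 hFd hmult hm
    by_contra hcon
    have hW : (d : ℝ) * Real.sqrt r ≤ ((∑ i, m i : ℕ) : ℝ) := by
      rw [Nat.cast_sum]
      exact not_lt.1 hcon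
    let x : Cov := ⟨(d, m), hd, hm, hW⟩
    apply hpZ _ ⟨x, rfl⟩
    intro G' hG'
    rw [Set.mem_singleton_iff.1 hG']
    apply hG3 x
    exact ⟨F, hF0, hFd, fun i a b c habc => hmult i a b c habc⟩

end Vale.Agent.Lib.P279
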